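import Vale.Agent.P162.Link

namespace Vale.Agent.Results.P162.Optimal

open Vale.Agent.P162

theorem result : ∃ c C : ℝ, 0 < c ∧ 0 < C ∧
    ∀ᶠ d : ℕ in Filter.atTop, c * d ≤ (tmix (2 ^ d) : ℝ) ∧ (tmix (2 ^ d) : ℝ) ≤ C * d :=
  main

end Vale.Agent.Results.P162.Optimal
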